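import Mathlib
import Crest.Statements.S0316
import Crest.Agent.ODEFlow.Local

set_option autoImplicit false
set_option linter.unusedSimpArgs false
open Crest Crest.GeometryTopology Crest.GeometryTopology.Quadric
open Set Filter Topology Metric
open scoped ContDiff NNReal

noncomputable section

namespace Crest.Agent.S0316H

abbrev V5 := Fin 5 → ℂ

/-- moment map components -/
def mm (j k : Fin 5) (z : V5) : ℝ := 2 * ((z j).re * (z k).im - (z j).im * (z k).re)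

/-- polarised version -/
def dmm (j k : Fin 5) (z w : V5) : ℝ :=
  2 * ((w j).re * (z k).im + (z j).re * (w k).im - (w j).im * (z k).re - (z j).im * (w k).re)

lemma hasDerivAt_re {z : ℝ → V5} {z' : V5} {t : ℝ} (h : HasDerivAt z z' t) (j : Fin 5) :
    HasDerivAt (fun s => (z s j).re) (z' j).re t :=
  Complex.reCLM.hasFDerivAt.comp_hasDerivAt t (hasDerivAt_pi.1 h j)

lemma hasDerivAt_im {z : ℝ → V5} {z' : V5} {t : ℝ} (h : HasDerivAt z z' t) (j : Fin 5) :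
    HasDerivAt (fun s => (z s j).im) (z' j).im t :=
  Complex.imCLM.hasFDerivAt.comp_hasDerivAt t (hasDerivAt_pi.1 h j)

lemma hasDerivAt_mm {z : ℝ → V5} {z' : V5} {t : ℝ} (h : HasDerivAt z z' t) (j k : Fin 5) :
    HasDerivAt (fun s => mm j k (z s)) (dmm j k (z t) z') t := by
  have h1 := (((hasDerivAt_re h j).mul (hasDerivAt_im h k)).sub
    ((hasDerivAt_im h j).mul (hasDerivAt_re h k))).const_mul 2
  refine h1.congr_deriv ?_
  simp only [dmm]; ring

lemma contDiff_mm (j k : Fin 5) : ContDiff ℝ ∞ (mm j k) := by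
  have hre : ∀ j : Fin 5, ContDiff ℝ ∞ (fun z : V5 => (z j).re) := fun j =>
    Complex.reCLM.contDiff.comp (contDiff_apply ℝ ℂ j)
  have him : ∀ j : Fin 5, ContDiff ℝ ∞ (fun z : V5 => (z j).im) := fun j =>
    Complex.imCLM.contDiff.comp (contDiff_apply ℝ ℂ j)
  unfold mm
  exact contDiff_const.mul (((hre j).mul (him k)).sub ((him j).mul (hre k)))

/-- the Hamiltonian -/
def FF (z : V5) : ℝ :=
  mm 0 1 z ^ 2 + mm 0 2 z ^ 2 + mm 0 3 z ^ 2 - mm 2 3 z ^ 2 - mm 1 3 z ^ 2 - mm 1 2 z ^ 2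
    + mm 0 1 z + mm 2 3 z + mm 0 2 z + mm 1 3 z

/-- its Hamiltonian vector field -/
def XX (z : V5) : V5 :=
  ![-((2 * mm 0 1 z + 1 : ℝ) * z 1 + (2 * mm 0 2 z + 1 : ℝ) * z 2 + (2 * mm 0 3 z : ℝ) * z 3),
    (2 * mm 0 1 z + 1 : ℝ) * z 0 + (2 * mm 1 2 z : ℝ) * z 2 - (1 - 2 * mm 1 3 z : ℝ) * z 3,
    (2 * mm 0 2 z + 1 : ℝ) * z 0 - (2 * mm 1 2 z : ℝ) * z 1 - (1 - 2 * mm 2 3 z : ℝ) * z 3,
    (2 * mm 0 3 z : ℝ) * z 0 + (1 - 2 * mm 1 3 z : ℝ) * z 1 + (1 - 2 * mm 2 3 z : ℝ) * z 2,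
    0]

lemma contDiff_FF : ContDiff ℝ ∞ FF := by
  unfold FF
  have := contDiff_mm
  exact ((((((((((this 0 1).pow 2).add ((this 0 2).pow 2)).add ((this 0 3).pow 2)).sub
    ((this 2 3).pow 2)).sub ((this 1 3).pow 2)).sub ((this 1 2).pow 2)).add (this 0 1)).add
    (this 2 3)).add (this 0 2)).add (this 1 3)

lemma contDiff_smul_coord (f : V5 → ℝ) (hf : ContDiff ℝ ∞ f) (j : Fin 5) :
    ContDiff ℝ ∞ (fun z : V5 => ((f z : ℝ) : ℂ) * z j) :=
  (Complex.ofRealCLM.contDiff.comp hf).mul (contDiff_apply ℝ ℂ j)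

lemma contDiff_XX : ContDiff ℝ ∞ XX := by
  have h := contDiff_mm
  have h1 : ∀ j k, ContDiff ℝ ∞ (fun z => 2 * mm j k z + 1) := fun j k =>
    (contDiff_const.mul (h j k)).add contDiff_const
  have h2 : ∀ j k, ContDiff ℝ ∞ (fun z => 2 * mm j k z) := fun j k => contDiff_const.mul (h j k)
  have h3 : ∀ j k, ContDiff ℝ ∞ (fun z => 1 - 2 * mm j k z) := fun j k => contDiff_const.sub (h2 j k)
  rw [contDiff_pi]
  intro i
  fin_cases i
  · exact (((contDiff_smul_coord _ (h1 0 1) 1).add (contDiff_smul_coord _ (h1 0 2) 2)).add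
      (contDiff_smul_coord _ (h2 0 3) 3)).neg
  · exact ((contDiff_smul_coord _ (h1 0 1) 0).add (contDiff_smul_coord _ (h2 1 2) 2)).sub
      (contDiff_smul_coord _ (h3 1 3) 3)
  · exact ((contDiff_smul_coord _ (h1 0 2) 0).sub (contDiff_smul_coord _ (h2 1 2) 1)).sub
      (contDiff_smul_coord _ (h3 2 3) 3)
  · exact ((contDiff_smul_coord _ (h2 0 3) 0).add (contDiff_smul_coord _ (h3 1 3) 1)).add
      (contDiff_smul_coord _ (h3 2 3) 2)
  · exact contDiff_const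

lemma herm_im_XX (z w : V5) : 2 * (herm (XX z) w).im =
    (2 * mm 0 1 z + 1) * dmm 0 1 z w + (2 * mm 0 2 z + 1) * dmm 0 2 z w + 2 * mm 0 3 z * dmm 0 3 z w
     + (1 - 2 * mm 2 3 z) * dmm 2 3 z w + (1 - 2 * mm 1 3 z) * dmm 1 3 z w - 2 * mm 1 2 z * dmm 1 2 z w := by
  simp only [herm, XX, Fin.sum_univ_five, Fin.isValue, Matrix.cons_val_zero, Matrix.cons_val_one,
    Matrix.cons_val, map_neg, map_add, map_sub, map_mul, Complex.conj_ofReal, map_zero, zero_mul, add_zero,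
    Complex.add_im, Complex.mul_im, Complex.neg_im, Complex.sub_im, Complex.neg_re, Complex.add_re,
    Complex.sub_re, Complex.mul_re, Complex.conj_re, Complex.conj_im, Complex.ofReal_re, Complex.ofReal_im,
    Complex.zero_im, dmm]
  ring

lemma hasDerivAt_FF {z : ℝ → V5} {z' : V5} {t : ℝ} (h : HasDerivAt z z' t) :
    HasDerivAt (fun s => FF (z s)) (2 * (herm (XX (z t)) z').im) t := by
  have h1 := hasDerivAt_mm h
  have := (((((((((((h1 0 1).pow 2).add ((h1 0 2).pow 2)).add ((h1 0 3).pow 2)).sub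
    ((h1 2 3).pow 2)).sub ((h1 1 3).pow 2)).sub ((h1 1 2).pow 2)).add (h1 0 1)).add
    (h1 2 3)).add (h1 0 2)).add (h1 1 3))
  refine this.congr_deriv ?_
  rw [herm_im_XX]
  norm_num
  ring

end Crest.Agent.S0316H
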