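import Mathlib
import Crest.Agent.S0316H.Basic

set_option autoImplicit false
set_option linter.unusedSimpArgs false
open Crest Crest.GeometryTopology Crest.GeometryTopology.Quadric
open Set Filter Topology Metric
open scoped ContDiff NNReal

noncomputable section

namespace Crest.Agent.S0316H

/-- derivative of the vector field -/
def DX (z w : V5) : V5 :=
  ![-((2 * mm 0 1 z + 1 : ℝ) * w 1 + (2 * dmm 0 1 z w : ℝ) * z 1
      + ((2 * mm 0 2 z + 1 : ℝ) * w 2 + (2 * dmm 0 2 z w : ℝ) * z 2)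
      + ((2 * mm 0 3 z : ℝ) * w 3 + (2 * dmm 0 3 z w : ℝ) * z 3)),
    ((2 * mm 0 1 z + 1 : ℝ) * w 0 + (2 * dmm 0 1 z w : ℝ) * z 0)
      + ((2 * mm 1 2 z : ℝ) * w 2 + (2 * dmm 1 2 z w : ℝ) * z 2)
      - ((1 - 2 * mm 1 3 z : ℝ) * w 3 + (-(2 * dmm 1 3 z w) : ℝ) * z 3),
    ((2 * mm 0 2 z + 1 : ℝ) * w 0 + (2 * dmm 0 2 z w : ℝ) * z 0)
      - ((2 * mm 1 2 z : ℝ) * w 1 + (2 * dmm 1 2 z w : ℝ) * z 1)
      - ((1 - 2 * mm 2 3 z : ℝ) * w 3 + (-(2 * dmm 2 3 z w) : ℝ) * z 3),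
    ((2 * mm 0 3 z : ℝ) * w 0 + (2 * dmm 0 3 z w : ℝ) * z 0)
      + ((1 - 2 * mm 1 3 z : ℝ) * w 1 + (-(2 * dmm 1 3 z w) : ℝ) * z 1)
      + ((1 - 2 * mm 2 3 z : ℝ) * w 2 + (-(2 * dmm 2 3 z w) : ℝ) * z 2),
    0]

lemma hasDerivAt_coord {z : ℝ → V5} {z' : V5} {t : ℝ} (h : HasDerivAt z z' t) {f : ℝ → ℝ} {f' : ℝ}
    (hf : HasDerivAt f f' t) (j : Fin 5) :
    HasDerivAt (fun s => ((f s : ℝ) : ℂ) * z s j) ((f t : ℝ) * z' j + (f' : ℝ) * z t j) t := by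
  have := hf.ofReal_comp.mul (hasDerivAt_pi.1 h j)
  refine this.congr_deriv ?_
  ring

lemma hasDerivAt_XX {z : ℝ → V5} {z' : V5} {t : ℝ} (h : HasDerivAt z z' t) :
    HasDerivAt (fun s => XX (z s)) (DX (z t) z') t := by
  have hm := hasDerivAt_mm h
  have h1 : ∀ j k, HasDerivAt (fun s => 2 * mm j k (z s) + 1) (2 * dmm j k (z t) z') t := fun j k =>
    ((hm j k).const_mul 2).add_const 1
  have h2 : ∀ j k, HasDerivAt (fun s => 2 * mm j k (z s)) (2 * dmm j k (z t) z') t := fun j k =>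
    ((hm j k).const_mul 2)
  have h3 : ∀ j k, HasDerivAt (fun s => 1 - 2 * mm j k (z s)) (-(2 * dmm j k (z t) z')) t := fun j k =>
    ((hm j k).const_mul 2).const_sub 1
  rw [hasDerivAt_pi]
  intro i
  fin_cases i
  · exact (((hasDerivAt_coord h (h1 0 1) 1).add (hasDerivAt_coord h (h1 0 2) 2)).add
      (hasDerivAt_coord h (h2 0 3) 3)).neg
  · exact ((hasDerivAt_coord h (h1 0 1) 0).add (hasDerivAt_coord h (h2 1 2) 2)).sub
      (hasDerivAt_coord h (h3 1 3) 3)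
  · exact ((hasDerivAt_coord h (h1 0 2) 0).sub (hasDerivAt_coord h (h2 1 2) 1)).sub
      (hasDerivAt_coord h (h3 2 3) 3)
  · exact ((hasDerivAt_coord h (h2 0 3) 0).add (hasDerivAt_coord h (h3 1 3) 1)).add
      (hasDerivAt_coord h (h3 2 3) 2)
  · exact hasDerivAt_const _ _

/-- rotation by the angle `s` in the planes (0,1) and (2,3) -/
def Rot (s : ℝ) (z : V5) : V5 :=
  ![(Real.cos s : ℝ) * z 0 - (Real.sin s : ℝ) * z 1, (Real.sin s : ℝ) * z 0 + (Real.cos s : ℝ) * z 1,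
    (Real.cos s : ℝ) * z 2 - (Real.sin s : ℝ) * z 3, (Real.sin s : ℝ) * z 2 + (Real.cos s : ℝ) * z 3, z 4]

/-- its generator -/
def JJ (z : V5) : V5 := ![-z 1, z 0, -z 3, z 2, 0]

lemma Rot_smul (s : ℝ) (c : ℂ) (z : V5) : Rot s (c • z) = c • Rot s z := by
  ext i
  fin_cases i <;> simp [Rot] <;> ring

lemma Rot_add (s : ℝ) (z w : V5) : Rot s (z + w) = Rot s z + Rot s w := by
  ext i
  fin_cases i <;> simp [Rot] <;> ring

lemma Rot_rsmul (s : ℝ) (c : ℝ) (z : V5) : Rot s (c • z) = c • Rot s z := by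
  ext i
  fin_cases i <;> simp [Rot] <;> ring

lemma Rot_zero (z : V5) : Rot 0 z = z := by
  ext i
  fin_cases i <;> simp [Rot]

lemma Rot_neg_Rot (s : ℝ) (z : V5) : Rot (-s) (Rot s z) = z := by
  have h : ((Real.cos s : ℝ) : ℂ) ^ 2 + ((Real.sin s : ℝ) : ℂ) ^ 2 = 1 := by
    exact_mod_cast Real.cos_sq_add_sin_sq s
  ext i
  fin_cases i <;> simp [Rot, -Complex.ofReal_cos, -Complex.ofReal_sin]
  · linear_combination (z 0) * h
  · linear_combination (z 1) * h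
  · linear_combination (z 2) * h
  · linear_combination (z 3) * h

lemma herm_Rot (s : ℝ) (u w : V5) : herm (Rot s u) (Rot s w) = herm u w := by
  have h : ((Real.cos s : ℝ) : ℂ) ^ 2 + ((Real.sin s : ℝ) : ℂ) ^ 2 = 1 := by
    exact_mod_cast Real.cos_sq_add_sin_sq s
  simp only [herm, Rot, Fin.sum_univ_five, Fin.isValue, Matrix.cons_val_zero, Matrix.cons_val_one,
    Matrix.cons_val, map_neg, map_add, map_sub, map_mul, Complex.conj_ofReal]
  linear_combination (starRingEnd ℂ (u 0) * w 0 + starRingEnd ℂ (u 1) * w 1 + starRingEnd ℂ (u 2) * w 2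
    + starRingEnd ℂ (u 3) * w 3) * h

lemma sq_Rot (s : ℝ) (u : V5) : ∑ j, Rot s u j ^ 2 = ∑ j, u j ^ 2 := by
  have h : ((Real.cos s : ℝ) : ℂ) ^ 2 + ((Real.sin s : ℝ) : ℂ) ^ 2 = 1 := by
    exact_mod_cast Real.cos_sq_add_sin_sq s
  simp only [Rot, Fin.sum_univ_five, Fin.isValue, Matrix.cons_val_zero, Matrix.cons_val_one,
    Matrix.cons_val]
  linear_combination (u 0 ^ 2 + u 1 ^ 2 + u 2 ^ 2 + u 3 ^ 2) * h

lemma Rot_mem (s : ℝ) {z : V5} (hz : z ∈ unitCone) : Rot s z ∈ unitCone := by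
  refine ⟨?_, ?_⟩
  · rw [herm_Rot]; exact hz.1
  · rw [sq_Rot]; exact hz.2

lemma herm_Rot_left (s : ℝ) (u w : V5) : herm (Rot s u) w = herm u (Rot (-s) w) := by
  have := herm_Rot (-s) (Rot s u) w
  rw [Rot_neg_Rot] at this
  exact this.symm

lemma hasDerivAt_Rot {θ : ℝ → ℝ} {θ' : ℝ} {z : ℝ → V5} {z' : V5} {t : ℝ} (hθ : HasDerivAt θ θ' t)
    (h : HasDerivAt z z' t) :
    HasDerivAt (fun s => Rot (θ s) (z s)) (θ' • JJ (Rot (θ t) (z t)) + Rot (θ t) z') t := by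
  have hc := hθ.cos
  have hs := hθ.sin
  rw [hasDerivAt_pi]
  intro i
  fin_cases i
  · refine ((hasDerivAt_coord h hc 0).sub (hasDerivAt_coord h hs 1)).congr_deriv ?_
    simp [Rot, JJ]; ring
  · refine ((hasDerivAt_coord h hs 0).add (hasDerivAt_coord h hc 1)).congr_deriv ?_
    simp [Rot, JJ]; ring
  · refine ((hasDerivAt_coord h hc 2).sub (hasDerivAt_coord h hs 3)).congr_deriv ?_
    simp [Rot, JJ]; ring
  · refine ((hasDerivAt_coord h hs 2).add (hasDerivAt_coord h hc 3)).congr_deriv ?_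
    simp [Rot, JJ]; ring
  · refine (hasDerivAt_pi.1 h 4).congr_deriv ?_
    simp [Rot, JJ]

lemma contDiff_Rot : ContDiff ℝ ∞ (fun p : ℝ × V5 => Rot p.1 p.2) := by
  have hc : ContDiff ℝ ∞ (fun p : ℝ × V5 => ((Real.cos p.1 : ℝ) : ℂ)) :=
    Complex.ofRealCLM.contDiff.comp (Real.contDiff_cos.comp contDiff_fst)
  have hs : ContDiff ℝ ∞ (fun p : ℝ × V5 => ((Real.sin p.1 : ℝ) : ℂ)) :=
    Complex.ofRealCLM.contDiff.comp (Real.contDiff_sin.comp contDiff_fst)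
  have hj : ∀ j : Fin 5, ContDiff ℝ ∞ (fun p : ℝ × V5 => p.2 j) := fun j =>
    (contDiff_apply ℝ ℂ j).comp contDiff_snd
  rw [contDiff_pi]
  intro i
  fin_cases i
  · exact (hc.mul (hj 0)).sub (hs.mul (hj 1))
  · exact (hs.mul (hj 0)).add (hc.mul (hj 1))
  · exact (hc.mul (hj 2)).sub (hs.mul (hj 3))
  · exact (hs.mul (hj 2)).add (hc.mul (hj 3))
  · exact hj 4

/-- the linear Hamiltonian generating `Rot` -/
def GG (z : V5) : ℝ := mm 0 1 z + mm 2 3 z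

lemma contDiff_GG : ContDiff ℝ ∞ GG := (contDiff_mm 0 1).add (contDiff_mm 2 3)

lemma hasDerivAt_GG {z : ℝ → V5} {z' : V5} {t : ℝ} (h : HasDerivAt z z' t) :
    HasDerivAt (fun s => GG (z s)) (2 * (herm (JJ (z t)) z').im) t := by
  refine ((hasDerivAt_mm h 0 1).add (hasDerivAt_mm h 2 3)).congr_deriv ?_
  simp only [herm, JJ, Fin.sum_univ_five, Fin.isValue, Matrix.cons_val_zero, Matrix.cons_val_one,
    Matrix.cons_val, map_neg, map_zero, zero_mul, add_zero, neg_mul,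
    Complex.add_im, Complex.mul_im, Complex.neg_im, Complex.conj_re, Complex.conj_im, dmm]
  ring

lemma mm_smul (j k : Fin 5) (c : ℂ) (z : V5) (hc : ‖c‖ = 1) : mm j k (c • z) = mm j k z := by
  have h : c.re ^ 2 + c.im ^ 2 = 1 := by
    have h1 := Complex.sq_norm c
    rw [Complex.normSq_apply, hc] at h1
    linarith
  simp only [mm, Pi.smul_apply, smul_eq_mul, Complex.mul_re, Complex.mul_im]
  linear_combination (2 * ((z j).re * (z k).im - (z j).im * (z k).re)) * h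

lemma GG_smul (c : ℂ) (z : V5) (hc : ‖c‖ = 1) : GG (c • z) = GG z := by
  simp only [GG, mm_smul _ _ c z hc]

lemma FF_smul (c : ℂ) (z : V5) (hc : ‖c‖ = 1) : FF (c • z) = FF z := by
  simp only [FF, mm_smul _ _ c z hc]

lemma XX_smul (c : ℂ) (z : V5) (hc : ‖c‖ = 1) : XX (c • z) = c • XX z := by
  ext i
  fin_cases i <;> simp [XX, mm_smul _ _ c z hc] <;> ring

end Crest.Agent.S0316H
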