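import Mathlib
import Crest.Agent.S0316H.Rot

set_option autoImplicit false
set_option linter.unusedSimpArgs false
open Crest Crest.GeometryTopology Crest.GeometryTopology.Quadric
open Set Filter Topology Metric
open scoped ContDiff NNReal

noncomputable section

namespace Crest.Agent.S0316H

lemma herm_self (z : V5) : herm z z = ((∑ j, ((z j).re ^ 2 + (z j).im ^ 2) : ℝ) : ℂ) := by
  unfold herm
  push_cast
  refine Finset.sum_congr rfl (fun j _ => ?_)
  apply Complex.ext <;> simp [Complex.mul_re, Complex.mul_im, sq] 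
  ring

lemma cone_sum {z : V5} (hz : z ∈ unitCone) : ∑ j, ((z j).re ^ 2 + (z j).im ^ 2) = 1 := by
  have := hz.1
  rw [herm_self] at this
  exact_mod_cast this

lemma cone_coord {z : V5} (hz : z ∈ unitCone) (j : Fin 5) : (z j).re ^ 2 + (z j).im ^ 2 ≤ 1 := by
  rw [← cone_sum hz]
  exact Finset.single_le_sum (f := fun j => (z j).re ^ 2 + (z j).im ^ 2) (fun i _ => by positivity) (Finset.mem_univ j)

lemma cone_norm {z : V5} (hz : z ∈ unitCone) : ‖z‖ ≤ 1 := by
  rw [pi_norm_le_iff_of_nonneg zero_le_one]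
  intro j
  have h := cone_coord hz j
  have h2 := Complex.sq_norm (z j)
  rw [Complex.normSq_apply] at h2
  nlinarith [norm_nonneg (z j)]

lemma cone_ball {z : V5} (hz : z ∈ unitCone) : z ∈ ball (0 : V5) 2 := by
  rw [mem_ball_zero_iff]; linarith [cone_norm hz]

lemma const_of_deriv_zero {F : Type*} [NormedAddCommGroup F] [NormedSpace ℝ F] (f : ℝ → F) {a b : ℝ}
    (hf : ∀ t ∈ Ioo a b, HasDerivAt f 0 t) {s t : ℝ} (hs : s ∈ Ioo a b) (ht : t ∈ Ioo a b) : f s = f t := by
  have := (convex_Ioo a b).norm_image_sub_le_of_norm_hasDerivWithin_le (f := f) (f' := fun _ => 0) (C := 0)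
    (fun x hx => (hf x hx).hasDerivWithinAt) (fun x _ => by simp) ht hs
  rw [zero_mul, norm_le_zero_iff, sub_eq_zero] at this
  exact this

/-- the local flow, packaged -/
structure LocalFlow where
  δ : ℝ
  hδ : 0 < δ
  φ : ℝ × V5 → V5
  smooth : ContDiffOn ℝ ∞ φ (Ioo (-δ) δ ×ˢ ball 0 2)
  init : ∀ x ∈ ball (0 : V5) 2, φ (0, x) = x
  ode : ∀ t ∈ Ioo (-δ) δ, ∀ x ∈ ball (0 : V5) 2, HasDerivAt (fun s => φ (s, x)) (XX (φ (t, x))) t

lemma nonempty_localFlow : Nonempty LocalFlow := by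
  obtain ⟨δ, hδ, φ, h1, h2, h3⟩ := ODEFlow.exists_local_flow (n := ⊤) (by simp) XX contDiff_XX 2 (by norm_num)
  exact ⟨⟨δ, hδ, φ, h1, h2, h3⟩⟩

namespace LocalFlow

variable (L : LocalFlow)

lemma zero_mem : (0 : ℝ) ∈ Ioo (-L.δ) L.δ := ⟨by linarith [L.hδ], L.hδ⟩

lemma sum_XX (z : V5) : ∑ j, (2 * ((z j).re * (XX z j).re) + 2 * ((z j).im * (XX z j).im)) = 0 := by
  simp only [XX, Fin.sum_univ_five, Fin.isValue, Matrix.cons_val_zero, Matrix.cons_val_one,
    Matrix.cons_val, Complex.neg_re, Complex.neg_im, Complex.add_re, Complex.add_im, Complex.sub_re, Complex.sub_im,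
    Complex.re_ofReal_mul, Complex.im_ofReal_mul, Complex.zero_re, Complex.zero_im]
  ring

lemma sum_XX' (z : V5) : ∑ j, (2 * (z j * XX z j)) = 0 := by
  simp only [XX, Fin.sum_univ_five, Fin.isValue, Matrix.cons_val_zero, Matrix.cons_val_one,
    Matrix.cons_val]
  ring

lemma mem_cone {z : V5} (hz : z ∈ unitCone) {t : ℝ} (ht : t ∈ Ioo (-L.δ) L.δ) : L.φ (t, z) ∈ unitCone := by
  have hb := cone_ball hz
  constructor
  · have h1 : ∀ s ∈ Ioo (-L.δ) L.δ, HasDerivAt (fun s => ∑ j, ((L.φ (s, z) j).re ^ 2 + (L.φ (s, z) j).im ^ 2)) 0 s := by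
      intro s hs
      have h := L.ode s hs z hb
      have h2 := HasDerivAt.fun_sum (u := Finset.univ) (fun j _ => ((hasDerivAt_re h j).pow 2).add ((hasDerivAt_im h j).pow 2))
      refine h2.congr_deriv ?_
      rw [← sum_XX (L.φ (s, z))]
      refine Finset.sum_congr rfl (fun j _ => ?_)
      simp; ring
    have h2 := const_of_deriv_zero _ h1 ht L.zero_mem
    rw [herm_self, h2, L.init z hb, cone_sum hz]
    simp
  · have h1 : ∀ s ∈ Ioo (-L.δ) L.δ, HasDerivAt (fun s => ∑ j, (L.φ (s, z) j) ^ 2) 0 s := by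
      intro s hs
      have h := L.ode s hs z hb
      have h2 := HasDerivAt.fun_sum (u := Finset.univ) (fun j _ => (hasDerivAt_pi.1 h j).pow 2)
      refine h2.congr_deriv ?_
      rw [← sum_XX' (L.φ (s, z))]
      refine Finset.sum_congr rfl (fun j _ => ?_)
      simp; ring
    have h2 := const_of_deriv_zero _ h1 ht L.zero_mem
    rw [h2, L.init z hb]
    exact hz.2

lemma unique {z : V5} (hz : z ∈ unitCone) (ψ : ℝ → V5) (h0 : ψ 0 = z)
    (hode : ∀ t ∈ Ioo (-L.δ) L.δ, HasDerivAt ψ (XX (ψ t)) t)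
    (hmem : ∀ t ∈ Ioo (-L.δ) L.δ, ψ t ∈ closedBall (0 : V5) 1) {t : ℝ} (ht : t ∈ Ioo (-L.δ) L.δ) :
    L.φ (t, z) = ψ t := by
  have hb := cone_ball hz
  obtain ⟨K, hK⟩ := (isCompact_closedBall (0 : V5) 1).exists_bound_of_continuousOn
    ((contDiff_XX.continuous_fderiv (by simp)).continuousOn)
  set K' : ℝ≥0 := ⟨max K 0, le_max_right _ _⟩
  have hlip : LipschitzOnWith K' XX (closedBall (0 : V5) 1) := by
    refine (convex_closedBall (0:V5) _).lipschitzOnWith_of_nnnorm_fderiv_le (𝕜 := ℝ)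
        (fun x _ => contDiff_XX.differentiable (by simp) x) ?_
    intro x hx
    have := (hK x hx).trans (le_max_left K 0)
    exact_mod_cast this
  have := ODE_solution_unique_of_mem_Ioo (v := fun _ => XX) (s := fun _ => closedBall (0:V5) 1) (K := K')
    (f := fun s => L.φ (s, z)) (g := ψ) (a := -L.δ) (b := L.δ) (t₀ := 0)
    (fun _ _ => hlip) L.zero_mem (fun s hs => ⟨L.ode s hs z hb, by
      rw [mem_closedBall_zero_iff]; exact cone_norm (L.mem_cone hz hs)⟩)
    (fun s hs => ⟨hode s hs, hmem s hs⟩) (by rw [L.init z hb, h0])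
  exact this ht

lemma smul_mem {c : ℂ} {z : V5} (hc : ‖c‖ = 1) (hz : z ∈ unitCone) : c • z ∈ unitCone := by
  constructor
  · have : herm (c • z) (c • z) = (starRingEnd ℂ c * c) * herm z z := by
      unfold herm
      rw [Finset.mul_sum]
      refine Finset.sum_congr rfl (fun j _ => ?_)
      simp; ring
    rw [this, hz.1, mul_one, Complex.conj_mul', hc]
    simp
  · have : ∑ j, (c • z) j ^ 2 = c ^ 2 * ∑ j, z j ^ 2 := by
      rw [Finset.mul_sum]
      refine Finset.sum_congr rfl (fun j _ => ?_)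
      simp; ring
    rw [this, hz.2, mul_zero]

lemma equivariant {z : V5} (hz : z ∈ unitCone) {c : ℂ} (hc : ‖c‖ = 1) {t : ℝ} (ht : t ∈ Ioo (-L.δ) L.δ) :
    L.φ (t, c • z) = c • L.φ (t, z) := by
  refine L.unique (smul_mem hc hz) (fun s => c • L.φ (s, z)) ?_ ?_ ?_ ht
  · simp [L.init z (cone_ball hz)]
  · intro s hs
    rw [XX_smul _ _ hc]
    exact (L.ode s hs z (cone_ball hz)).const_smul c
  · intro s hs
    rw [mem_closedBall_zero_iff]
    exact cone_norm (smul_mem hc (L.mem_cone hz hs))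

end LocalFlow

end Crest.Agent.S0316H
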