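import Mathlib
import Crest.Agent.S0316H.Flow

set_option autoImplicit false
set_option linter.unusedSimpArgs false
open Crest Crest.GeometryTopology Crest.GeometryTopology.Quadric
open Set Filter Topology Metric
open scoped ContDiff NNReal

noncomputable section

namespace Crest.Agent.S0316H

/-- sum of squares of the real coordinates -/
def nsq (z : V5) : ℝ := ∑ j, ((z j).re ^ 2 + (z j).im ^ 2)

lemma nsq_nonneg (z : V5) : 0 ≤ nsq z := Finset.sum_nonneg (fun _ _ => by positivity)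

lemma coord_le_nsq (z : V5) (j : Fin 5) : (z j).re ^ 2 + (z j).im ^ 2 ≤ nsq z :=
  Finset.single_le_sum (f := fun j => (z j).re ^ 2 + (z j).im ^ 2) (fun i _ => by positivity) (Finset.mem_univ j)

lemma contDiff_re (j : Fin 5) : ContDiff ℝ ∞ (fun z : V5 => (z j).re) :=
  Complex.reCLM.contDiff.comp (contDiff_apply ℝ ℂ j)

lemma contDiff_im (j : Fin 5) : ContDiff ℝ ∞ (fun z : V5 => (z j).im) :=
  Complex.imCLM.contDiff.comp (contDiff_apply ℝ ℂ j)

lemma contDiff_nsq : ContDiff ℝ ∞ nsq := by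
  unfold nsq
  exact ContDiff.sum (fun j _ => ((contDiff_re j).pow 2).add ((contDiff_im j).pow 2))

lemma hasDerivAt_nsq {z : ℝ → V5} {z' : V5} {t : ℝ} (h : HasDerivAt z z' t) :
    HasDerivAt (fun s => nsq (z s)) (2 * (herm (z t) z').re) t := by
  have h2 := HasDerivAt.fun_sum (u := Finset.univ) (fun j _ => ((hasDerivAt_re h j).pow 2).add ((hasDerivAt_im h j).pow 2))
  refine h2.congr_deriv ?_
  simp only [herm, Complex.re_sum, Finset.mul_sum]
  refine Finset.sum_congr rfl (fun j _ => ?_)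
  simp [Complex.mul_re]; ring

/-- a smooth map of the whole space into the unit ball which is the identity on the unit sphere -/
def NN (z : V5) : V5 := (2 / (1 + nsq z)) • z

lemma one_add_nsq_ne (z : V5) : 1 + nsq z ≠ 0 := by
  have := nsq_nonneg z
  positivity

lemma contDiff_NN : ContDiff ℝ ∞ NN := by
  unfold NN
  exact (contDiff_const.div (contDiff_const.add contDiff_nsq) one_add_nsq_ne).smul contDiff_id

lemma NN_mem_ball (z : V5) : NN z ∈ ball (0 : V5) 2 := by
  have h0 := nsq_nonneg z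
  rw [mem_ball_zero_iff]
  have : ‖NN z‖ ≤ 1 := by
    rw [pi_norm_le_iff_of_nonneg zero_le_one]
    intro j
    unfold NN
    rw [Pi.smul_apply, norm_smul, Real.norm_eq_abs, abs_of_nonneg (by positivity)]
    rw [div_mul_eq_mul_div, div_le_one (by positivity)]
    have h2 := Complex.sq_norm (z j)
    rw [Complex.normSq_apply] at h2
    have h3 := coord_le_nsq z j
    nlinarith [norm_nonneg (z j), sq_nonneg (‖z j‖ - 1)]
  linarith

lemma NN_cone {z : V5} (hz : z ∈ unitCone) : NN z = z := by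
  unfold NN
  rw [show nsq z = 1 from cone_sum hz]
  norm_num

/-- bounded time reparametrisation -/
def eta (t : ℝ) : ℝ := Real.sin (Real.pi / 2 * t) ^ 2

lemma contDiff_eta : ContDiff ℝ ∞ eta := by
  unfold eta
  exact (Real.contDiff_sin.comp (contDiff_const.mul contDiff_id)).pow 2

lemma eta_mem (t : ℝ) : eta t ∈ Icc (0:ℝ) 1 := by
  unfold eta
  exact ⟨by positivity, Real.sin_sq_le_one _⟩

lemma eta_zero : eta 0 = 0 := by simp [eta]
lemma eta_one : eta 1 = 1 := by simp [eta]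

/-- derivative of `eta` -/
def eta' (t : ℝ) : ℝ := Real.pi * Real.sin (Real.pi / 2 * t) * Real.cos (Real.pi / 2 * t)

lemma hasDerivAt_eta (t : ℝ) : HasDerivAt eta (eta' t) t := by
  have h1 : HasDerivAt (fun t : ℝ => Real.pi / 2 * t) (Real.pi / 2) t := by
    simpa using (hasDerivAt_id t).const_mul (Real.pi / 2)
  have := (h1.sin).pow 2
  refine this.congr_deriv ?_
  unfold eta'
  simp; ring

lemma contDiff_eta' : ContDiff ℝ ∞ eta' := by
  unfold eta'
  exact (contDiff_const.mul (Real.contDiff_sin.comp (contDiff_const.mul contDiff_id))).mul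
    (Real.contDiff_cos.comp (contDiff_const.mul contDiff_id))

variable (L : LocalFlow) (ε : ℝ)

/-- the isotopy -/
def Psi (p : ℝ × V5) : V5 := Rot (Real.pi * p.1) (L.φ (ε * eta p.1, NN p.2))

/-- the Hamiltonian -/
def Ham (p : ℝ × V5) : ℝ :=
  Real.pi * GG p.2 + ε * eta' p.1 * FF (Rot (-(Real.pi * p.1)) p.2)

lemma time_mem {L : LocalFlow} {ε : ℝ} (h0 : 0 < ε) (hε : ε < L.δ) (t : ℝ) : ε * eta t ∈ Ioo (-L.δ) L.δ := by
  have h := eta_mem t
  have h1 : 0 ≤ ε * eta t := mul_nonneg h0.le h.1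
  have h2 : ε * eta t ≤ ε * 1 := by gcongr; exact h.2
  exact ⟨by linarith [L.hδ], by linarith⟩

lemma contDiff_pi_fst : ContDiff ℝ ∞ (fun p : ℝ × V5 => Real.pi * p.1) :=
  contDiff_const.mul contDiff_fst

lemma contDiff_Psi {L : LocalFlow} {ε : ℝ} (h0 : 0 < ε) (hε : ε < L.δ) : ContDiff ℝ ∞ (Psi L ε) := by
  have he : ContDiff ℝ ∞ (fun p : ℝ × V5 => ε * eta p.1) :=
    contDiff_const.mul (contDiff_eta.comp contDiff_fst)
  have h1 : ContDiff ℝ ∞ (fun p : ℝ × V5 => ((ε * eta p.1, NN p.2) : ℝ × V5)) :=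
    he.prodMk (contDiff_NN.comp contDiff_snd)
  have h2 : ContDiff ℝ ∞ (L.φ ∘ (fun p : ℝ × V5 => ((ε * eta p.1, NN p.2) : ℝ × V5))) :=
    L.smooth.comp_contDiff h1 (fun p => ⟨time_mem h0 hε p.1, NN_mem_ball p.2⟩)
  have h3 : ContDiff ℝ ∞ (fun p : ℝ × V5 => ((Real.pi * p.1,
      (L.φ ∘ (fun p : ℝ × V5 => ((ε * eta p.1, NN p.2) : ℝ × V5))) p) : ℝ × V5)) :=
    ContDiff.prodMk contDiff_pi_fst h2
  have h4 := ContDiff.comp (g := fun p : ℝ × V5 => Rot p.1 p.2) contDiff_Rot h3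
  have h5 : Psi L ε = ((fun p : ℝ × V5 => Rot p.1 p.2) ∘ (fun p : ℝ × V5 => ((Real.pi * p.1,
      (L.φ ∘ (fun p : ℝ × V5 => ((ε * eta p.1, NN p.2) : ℝ × V5))) p) : ℝ × V5))) := by
    funext p
    rfl
  rw [h5]
  exact h4

lemma contDiff_Ham : ContDiff ℝ ∞ (Ham ε) := by
  have h0 : ContDiff ℝ ∞ (fun p : ℝ × V5 => ((-(Real.pi * p.1), p.2) : ℝ × V5)) :=
    contDiff_pi_fst.neg.prodMk contDiff_snd
  have h1 : ContDiff ℝ ∞ (FF ∘ ((fun p : ℝ × V5 => Rot p.1 p.2) ∘ (fun p : ℝ × V5 => ((-(Real.pi * p.1), p.2) : ℝ × V5)))) :=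
    contDiff_FF.comp (contDiff_Rot.comp h0)
  have h2 : ContDiff ℝ ∞ (fun p : ℝ × V5 => Real.pi * GG p.2) :=
    contDiff_const.mul (contDiff_GG.comp contDiff_snd)
  have h3 : ContDiff ℝ ∞ (fun p : ℝ × V5 => ε * eta' p.1) :=
    contDiff_const.mul (contDiff_eta'.comp contDiff_fst)
  have h4 := h2.add (h3.mul h1)
  exact h4

lemma Psi_cone {L : LocalFlow} {ε : ℝ} (t : ℝ) {z : V5} (hz : z ∈ unitCone) :
    Psi L ε (t, z) = Rot (Real.pi * t) (L.φ (ε * eta t, z)) := by
  simp only [Psi, NN_cone hz]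

lemma hasDerivAt_Psi {L : LocalFlow} {ε : ℝ} (h0 : 0 < ε) (hε : ε < L.δ) (t : ℝ) {z : V5} (hz : z ∈ unitCone) :
    HasDerivAt (fun s => Psi L ε (s, z))
      (Real.pi • JJ (Psi L ε (t, z)) + Rot (Real.pi * t) ((ε * eta' t) • XX (L.φ (ε * eta t, z)))) t := by
  have h1 : HasDerivAt (fun s => ε * eta s) (ε * eta' t) t := (hasDerivAt_eta t).const_mul ε
  have h2 := L.ode _ (time_mem h0 hε t) z (cone_ball hz)
  have h3 : HasDerivAt (fun s => L.φ (ε * eta s, z)) ((ε * eta' t) • XX (L.φ (ε * eta t, z))) t :=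
    h2.scomp (h := fun s => ε * eta s) t h1
  have h4 : HasDerivAt (fun s : ℝ => Real.pi * s) Real.pi t := by
    simpa using (hasDerivAt_id t).const_mul Real.pi
  have h5 := hasDerivAt_Rot h4 h3
  simp only [Psi_cone _ hz]
  exact h5

lemma herm_add_left (u v w : V5) : herm (u + v) w = herm u w + herm v w := by
  unfold herm
  rw [← Finset.sum_add_distrib]
  refine Finset.sum_congr rfl (fun j _ => ?_)
  simp; ring

lemma herm_rsmul_left (c : ℝ) (u w : V5) : herm (c • u) w = c * herm u w := by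
  unfold herm
  rw [Finset.mul_sum]
  refine Finset.sum_congr rfl (fun j _ => ?_)
  simp; ring


lemma fderiv_Ham (t : ℝ) (x w : V5) :
    fderiv ℝ (fun x : V5 => Ham ε (t, x)) x w =
      Real.pi * (2 * (herm (JJ x) w).im) +
        ε * eta' t * (2 * (herm (XX (Rot (-(Real.pi * t)) x)) (Rot (-(Real.pi * t)) w)).im) := by
  have hd : DifferentiableAt ℝ (fun x : V5 => Ham ε (t, x)) x :=
    ((contDiff_Ham ε).comp (contDiff_const.prodMk contDiff_id)).differentiable (by simp) x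
  have hl : HasDerivAt (fun s : ℝ => x + s • w) w 0 := by
    simpa using ((hasDerivAt_id (0:ℝ)).smul_const w).const_add x
  have hx0 : x = x + (0:ℝ) • w := by simp
  have h1 : HasDerivAt (fun s : ℝ => Ham ε (t, x + s • w)) (fderiv ℝ (fun x : V5 => Ham ε (t, x)) x w) 0 := by
    rw [hx0] at hd
    have := hd.hasFDerivAt.comp_hasDerivAt (f := fun s : ℝ => x + s • w) (0:ℝ) hl
    rw [← hx0] at this
    exact this
  have hr : HasDerivAt (fun s : ℝ => Rot (-(Real.pi * t)) (x + s • w)) (Rot (-(Real.pi * t)) w) 0 := by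
    have := hasDerivAt_Rot (hasDerivAt_const (0:ℝ) (-(Real.pi * t))) hl
    simpa using this
  have h2 := ((hasDerivAt_GG hl).const_mul Real.pi).add ((hasDerivAt_FF hr).const_mul (ε * eta' t))
  have h3 := h1.unique h2
  rw [h3, ← hx0]

/-- the lift -/
def lift (L : LocalFlow) (ε : ℝ) (h0 : 0 < ε) (hε : ε < L.δ) : HamiltonianConeLift where
  Ψ := Psi L ε
  H := Ham ε
  smooth_Ψ := contDiff_Psi h0 hε
  smooth_H := contDiff_Ham ε
  mapsTo_cone := by
    intro t z hz
    rw [Psi_cone t hz]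
    exact Rot_mem _ (L.mem_cone hz (time_mem h0 hε t))
  compatible := by
    intro t z hz c hc
    refine ⟨c, ?_⟩
    rw [Psi_cone t hz, Psi_cone t (LocalFlow.smul_mem hc hz), L.equivariant hz hc (time_mem h0 hε t), Rot_smul]
  start := by
    intro z hz
    refine ⟨1, ?_⟩
    rw [Psi_cone 0 hz, eta_zero, mul_zero, mul_zero, Rot_zero, L.init z (cone_ball hz), one_smul]
  invariant := by
    intro t z hz c hc
    simp only [Ham, GG_smul c z hc, Rot_smul, FF_smul c _ hc]
  hamilton := by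
    intro t _ z hz w _
    rw [(hasDerivAt_Psi h0 hε t hz).deriv, fderiv_Ham]
    have h1 : Rot (-(Real.pi * t)) (Psi L ε (t, z)) = L.φ (ε * eta t, z) := by
      rw [Psi_cone t hz, Rot_neg_Rot]
    rw [h1, herm_add_left, herm_rsmul_left, herm_Rot_left, herm_rsmul_left]
    simp only [Complex.add_im, Complex.re_ofReal_mul, Complex.im_ofReal_mul]
    ring

end Crest.Agent.S0316H
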