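import Mathlib
import Crest.Agent.S0316H.Lift

set_option autoImplicit false
set_option linter.unusedSimpArgs false
open Crest Crest.GeometryTopology Crest.GeometryTopology.Quadric
open Set Filter Topology Metric
open scoped ContDiff NNReal

noncomputable section

namespace Crest.Agent.S0316H

/-- short periodic orbits of Lipschitz vector fields are constant -/
lemma yorke {G : Type*} [NormedAddCommGroup G] [NormedSpace ℝ G] (Y : G → G) (s : Set G) (K : ℝ≥0)
    (hY : LipschitzOnWith K Y s) (M : ℝ → G) (T : ℝ) (hT : 0 < T)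
    (hM : ∀ t ∈ Icc 0 T, HasDerivAt M (Y (M t)) t) (hs : ∀ t ∈ Icc 0 T, M t ∈ s) (hper : M T = M 0)
    (hKT : K * T < 1) : Y (M 0) = 0 := by
  have hMc : ContinuousOn M (Icc 0 T) := fun t ht => (hM t ht).continuousAt.continuousWithinAt
  have hYc : ContinuousOn (fun t => ‖Y (M t)‖) (Icc 0 T) :=
    (hY.continuousOn.comp hMc hs).norm
  obtain ⟨t₁, ht₁, hmax⟩ := isCompact_Icc.exists_isMaxOn (nonempty_Icc.2 hT.le) hYc
  set C := ‖Y (M t₁)‖ with hC
  have hC0 : 0 ≤ C := norm_nonneg _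
  have hle : ∀ t ∈ Icc 0 T, ‖Y (M t)‖ ≤ C := fun t ht => hmax ht
  have hdist : ∀ t ∈ Icc 0 T, ‖M t - M t₁‖ ≤ C * T := by
    intro t ht
    have := (convex_Icc (0:ℝ) T).norm_image_sub_le_of_norm_hasDerivWithin_le (f := M)
      (f' := fun t => Y (M t)) (C := C) (fun x hx => (hM x hx).hasDerivWithinAt) hle ht₁ ht
    refine this.trans ?_
    gcongr
    rw [Real.norm_eq_abs, abs_le]
    constructor <;> linarith [ht.1, ht.2, ht₁.1, ht₁.2]
  have hg : ∀ t ∈ Icc 0 T, HasDerivWithinAt (fun t => M t - t • Y (M t₁)) (Y (M t) - Y (M t₁)) (Icc 0 T) t := by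
    intro t ht
    have h1 := (hM t ht).sub ((hasDerivAt_id t).smul_const (Y (M t₁)))
    simp only [one_smul] at h1
    exact h1.hasDerivWithinAt
  have hgb : ∀ t ∈ Icc 0 T, ‖Y (M t) - Y (M t₁)‖ ≤ K * (C * T) := by
    intro t ht
    have := hY.dist_le_mul _ (hs t ht) _ (hs t₁ ht₁)
    rw [dist_eq_norm, dist_eq_norm] at this
    refine this.trans ?_
    gcongr
    exact hdist t ht
  have hfin := (convex_Icc (0:ℝ) T).norm_image_sub_le_of_norm_hasDerivWithin_le hg hgb
    (left_mem_Icc.2 hT.le) (right_mem_Icc.2 hT.le)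
  simp only [hper, zero_smul, sub_zero, sub_sub_cancel_left] at hfin
  rw [norm_neg, norm_smul, Real.norm_eq_abs, abs_of_pos hT] at hfin
  have h3 : C ≤ K * T * C := by
    have : T * C ≤ T * (K * T * C) := by
      calc T * C ≤ _ := hfin
        _ = T * (K * T * C) := by ring
    exact le_of_mul_le_mul_left this hT
  have h4 : C = 0 := by nlinarith
  have := hle 0 (left_mem_Icc.2 hT.le)
  rw [h4] at this
  exact norm_le_zero_iff.1 this

/-- the six moment coordinates -/
def MM (z : V5) : Fin 6 → ℝ := ![mm 0 1 z, mm 0 2 z, mm 0 3 z, mm 1 2 z, mm 1 3 z, mm 2 3 z]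

/-- the reduced vector field -/
def YY (m : Fin 6 → ℝ) : Fin 6 → ℝ :=
  ![4 * m 1 * m 3 + m 3 + 4 * m 2 * m 4 - m 2,
    -4 * m 0 * m 3 - m 3 + 4 * m 2 * m 5 - m 2,
    -4 * m 0 * m 4 - m 4 + m 0 - 4 * m 1 * m 5 - m 5 + m 1,
    m 1 - m 0 + m 5 - m 4,
    m 2 + m 3,
    m 2 - m 3]

lemma contDiff_YY : ContDiff ℝ ∞ YY := by
  have h : ∀ j, ContDiff ℝ ∞ (fun m : Fin 6 → ℝ => m j) := fun j => contDiff_apply ℝ ℝ j
  rw [contDiff_pi]
  intro i
  fin_cases i <;> simp [YY] <;> fun_prop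

lemma hasDerivAt_MM {z : ℝ → V5} {t : ℝ} (h : HasDerivAt z (XX (z t)) t) :
    HasDerivAt (fun s => MM (z s)) (YY (MM (z t))) t := by
  have hm := hasDerivAt_mm h
  rw [hasDerivAt_pi]
  intro i
  fin_cases i
  · refine (hm 0 1).congr_deriv ?_
    simp [YY, MM, XX, dmm, mm]; ring
  · refine (hm 0 2).congr_deriv ?_
    simp [YY, MM, XX, dmm, mm]; ring
  · refine (hm 0 3).congr_deriv ?_
    simp [YY, MM, XX, dmm, mm]; ring
  · refine (hm 1 2).congr_deriv ?_
    simp [YY, MM, XX, dmm, mm]; ring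
  · refine (hm 1 3).congr_deriv ?_
    simp [YY, MM, XX, dmm, mm]; ring
  · refine (hm 2 3).congr_deriv ?_
    simp [YY, MM, XX, dmm, mm]; ring

lemma abs_mm_le {z : V5} (hz : z ∈ unitCone) (j k : Fin 5) : |mm j k z| ≤ 2 := by
  have h1 := cone_coord hz j
  have h2 := cone_coord hz k
  unfold mm
  rw [abs_le]
  constructor
  · nlinarith [sq_nonneg ((z j).re + (z k).im), sq_nonneg ((z j).im - (z k).re)]
  · nlinarith [sq_nonneg ((z j).re - (z k).im), sq_nonneg ((z j).im + (z k).re)]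

lemma coord_norm_le {z : V5} (hz : z ∈ unitCone) (j : Fin 5) : ‖z j‖ ≤ 1 :=
  (norm_le_pi_norm z j).trans (cone_norm hz)

lemma norm_XX_le {z : V5} (hz : z ∈ unitCone) : ‖XX z‖ ≤ 15 := by
  have hm := abs_mm_le hz
  have hc : ∀ (a : ℝ) (j : Fin 5), |a| ≤ 5 → ‖(a : ℂ) * z j‖ ≤ 5 := by
    intro a j ha
    rw [norm_mul, Complex.norm_real, Real.norm_eq_abs]
    have := coord_norm_le hz j
    calc |a| * ‖z j‖ ≤ 5 * 1 := by gcongr
      _ = 5 := by norm_num
  have h1 : ∀ j k, |2 * mm j k z + 1| ≤ 5 := fun j k => by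
    have := abs_le.1 (hm j k); rw [abs_le]; constructor <;> linarith
  have h2 : ∀ j k, |2 * mm j k z| ≤ 5 := fun j k => by
    have := abs_le.1 (hm j k); rw [abs_le]; constructor <;> linarith
  have h3 : ∀ j k, |1 - 2 * mm j k z| ≤ 5 := fun j k => by
    have := abs_le.1 (hm j k); rw [abs_le]; constructor <;> linarith
  rw [pi_norm_le_iff_of_nonneg (by norm_num)]
  intro i
  fin_cases i
  · refine (norm_neg _).trans_le ?_
    refine (norm_add₃_le).trans ?_
    linarith [hc _ 1 (h1 0 1), hc _ 2 (h1 0 2), hc _ 3 (h2 0 3)]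
  · refine (norm_sub_le _ _).trans ?_
    have := norm_add_le (((2 * mm 0 1 z + 1 : ℝ) : ℂ) * z 0) (((2 * mm 1 2 z : ℝ) : ℂ) * z 2)
    linarith [hc _ 0 (h1 0 1), hc _ 2 (h2 1 2), hc _ 3 (h3 1 3)]
  · refine (norm_sub_le _ _).trans ?_
    have := norm_sub_le (((2 * mm 0 2 z + 1 : ℝ) : ℂ) * z 0) (((2 * mm 1 2 z : ℝ) : ℂ) * z 1)
    linarith [hc _ 0 (h1 0 2), hc _ 1 (h2 1 2), hc _ 3 (h3 2 3)]
  · refine (norm_add₃_le).trans ?_
    linarith [hc _ 0 (h2 0 3), hc _ 1 (h3 1 3), hc _ 2 (h3 2 3)]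
  · simp [XX]

lemma LocalFlow.dist_le (L : LocalFlow) {z : V5} (hz : z ∈ unitCone) {t : ℝ} (h0 : 0 ≤ t) (ht : t < L.δ) :
    ‖L.φ (t, z) - z‖ ≤ 15 * t := by
  have htI : t ∈ Ioo (-L.δ) L.δ := ⟨by linarith [L.hδ], ht⟩
  have := (convex_Ioo (-L.δ) L.δ).norm_image_sub_le_of_norm_hasDerivWithin_le (f := fun s => L.φ (s, z))
      (f' := fun t => XX (L.φ (t, z))) (C := 15)
      (fun x hx => (L.ode x hx z (cone_ball hz)).hasDerivWithinAt)
      (fun x hx => norm_XX_le (L.mem_cone hz hx)) L.zero_mem htI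
  simp only [sub_zero] at this
  rw [L.init z (cone_ball hz), Real.norm_eq_abs, abs_of_nonneg h0] at this
  exact this

lemma LocalFlow.coord4 (L : LocalFlow) {z : V5} (hz : z ∈ unitCone) {t : ℝ} (ht : t ∈ Ioo (-L.δ) L.δ) :
    L.φ (t, z) 4 = z 4 := by
  have h1 : ∀ s ∈ Ioo (-L.δ) L.δ, HasDerivAt (fun s => L.φ (s, z) 4) 0 s := by
    intro s hs
    have := hasDerivAt_pi.1 (L.ode s hs z (cone_ball hz)) 4
    refine this.congr_deriv ?_
    simp [XX]
  have := const_of_deriv_zero _ h1 ht L.zero_mem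
  rw [this, L.init z (cone_ball hz)]

lemma Rot_pi (z : V5) : Rot (Real.pi * 1) z = ![-z 0, -z 1, -z 2, -z 3, z 4] := by
  ext i
  fin_cases i <;> simp [Rot]

/-- the cone relations in real coordinates -/
lemma cone_rel {z : V5} (hz : z ∈ unitCone) :
    (∑ j, (z j).re ^ 2 = 1 / 2) ∧ (∑ j, (z j).im ^ 2 = 1 / 2) ∧ (∑ j, (z j).re * (z j).im = 0) := by
  have h1 := cone_sum hz
  have h2 := hz.2
  have h3 := congrArg Complex.re h2
  have h4 := congrArg Complex.im h2
  simp only [Complex.re_sum, Complex.im_sum, sq, Complex.mul_re, Complex.mul_im, Complex.zero_re, Complex.zero_im] at h3 h4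
  rw [Finset.sum_add_distrib] at h1
  rw [Finset.sum_sub_distrib] at h3
  rw [Finset.sum_add_distrib] at h4
  simp only [← sq] at h3
  have h5 : ∑ j, (z j).im * (z j).re = ∑ j, (z j).re * (z j).im := Finset.sum_congr rfl (fun j _ => mul_comm _ _)
  rw [h5] at h4
  refine ⟨by linarith, by linarith, by linarith⟩

lemma re_part {z : V5} (hz : z ∈ unitCone) (j k : Fin 5) :
    (z j).re * (z k).re + (z j).im * (z k).im = -(1/2) * ∑ l, mm j l z * mm l k z := by
  obtain ⟨hA, hB, hC⟩ := cone_rel hz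
  simp only [Fin.sum_univ_five, mm] at *
  linear_combination 2 * ((z j).re * (z k).im + (z j).im * (z k).re) * hC
    - 2 * ((z j).re * (z k).re) * hB - 2 * ((z j).im * (z k).im) * hA

/-- the moment map separates the lines of the quadric -/
lemma eq_smul_of_mm {z w : V5} (hz : z ∈ unitCone) (hw : w ∈ unitCone) (h : ∀ j k, mm j k z = mm j k w) :
    ∃ c : ℂ, z = c • w := by
  have key : ∀ j k, z j * starRingEnd ℂ (z k) = w j * starRingEnd ℂ (w k) := by
    intro j k
    apply Complex.ext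
    · simp only [Complex.mul_re, Complex.conj_re, Complex.conj_im, mul_neg, sub_neg_eq_add]
      rw [re_part hz, re_part hw]
      simp only [h]
    · simp only [Complex.mul_im, Complex.conj_re, Complex.conj_im, mul_neg]
      have := h j k
      simp only [mm] at this
      linarith
  obtain ⟨k, hk⟩ : ∃ k, w k ≠ 0 := by
    by_contra hcon
    push Not at hcon
    have := hw.1
    simp [herm, hcon] at this
  have hzk : starRingEnd ℂ (z k) ≠ 0 := by
    intro h0
    have := key k k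
    rw [h0, mul_zero] at this
    have h2 := mul_eq_zero.1 this.symm
    rcases h2 with h2 | h2
    · exact hk h2
    · exact hk ((map_eq_zero _).1 h2)
  have hzk' : z k ≠ 0 := fun h0 => hzk (by rw [h0, map_zero])
  refine ⟨z k / w k, ?_⟩
  ext j
  simp only [Pi.smul_apply, smul_eq_mul]
  have h1 := key j k
  have h2 := key k k
  have hwk : starRingEnd ℂ (w k) ≠ 0 := fun h0 => hk ((map_eq_zero _).1 h0)
  field_simp
  have h3 : z j * w k * starRingEnd ℂ (z k) = w j * z k * starRingEnd ℂ (z k) := by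
    calc z j * w k * starRingEnd ℂ (z k) = (z j * starRingEnd ℂ (z k)) * w k := by ring
      _ = (w j * starRingEnd ℂ (w k)) * w k := by rw [h1]
      _ = w j * (w k * starRingEnd ℂ (w k)) := by ring
      _ = w j * (z k * starRingEnd ℂ (z k)) := by rw [h2]
      _ = w j * z k * starRingEnd ℂ (z k) := by ring
  have h4 := mul_right_cancel₀ hzk h3
  first
    | exact h4
    | (rw [mul_comm] at h4; linear_combination h4)
    | linear_combination h4

end Crest.Agent.S0316H
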