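import Mathlib
import Crest.Agent.S0316H.Fixed

set_option autoImplicit false
set_option linter.unusedSimpArgs false
open Crest Crest.GeometryTopology Crest.GeometryTopology.Quadric
open Set Filter Topology Metric
open scoped ContDiff NNReal

noncomputable section

namespace Crest.Agent.S0316H

/-- the special points -/
def zz (α β : ℝ) : V5 := ![Complex.I * α, 1/2, 1/2, Complex.I * β, 0]

lemma zz_mem {α β : ℝ} (h : α ^ 2 + β ^ 2 = 1 / 2) : zz α β ∈ unitCone := by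
  have h' : (α : ℂ) ^ 2 + (β : ℂ) ^ 2 = 1 / 2 := by
    have e : ((α ^ 2 + β ^ 2 : ℝ) : ℂ) = ((1 / 2 : ℝ) : ℂ) := by rw [h]
    push_cast at e
    exact e
  constructor
  · simp only [herm, zz, Fin.sum_univ_five, Fin.isValue, Matrix.cons_val_zero, Matrix.cons_val_one,
      Matrix.cons_val, map_mul, Complex.conj_I, Complex.conj_ofReal, map_div₀, map_one, map_ofNat, map_zero]
    ring_nf
    rw [Complex.I_sq]
    linear_combination h'
  · simp only [zz, Fin.sum_univ_five, Fin.isValue, Matrix.cons_val_zero, Matrix.cons_val_one,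
      Matrix.cons_val]
    ring_nf
    rw [Complex.I_sq]
    linear_combination -h'

lemma mm_zz (α β : ℝ) : mm 0 1 (zz α β) = -α ∧ mm 0 2 (zz α β) = -α ∧ mm 0 3 (zz α β) = 0 ∧
    mm 1 2 (zz α β) = 0 ∧ mm 1 3 (zz α β) = β ∧ mm 2 3 (zz α β) = β := by
  refine ⟨?_, ?_, ?_, ?_, ?_, ?_⟩ <;> simp [mm, zz] <;> ring

lemma XX_zz {α β l : ℝ} (h : α ^ 2 + β ^ 2 = 1 / 2) (h1 : l * α = 1 - 2 * α) (h2 : l * β = -(1 - 2 * β)) :
    XX (zz α β) = (Complex.I * l) • zz α β := by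
  obtain ⟨e1, e2, e3, e4, e5, e6⟩ := mm_zz α β
  have h' : (α : ℂ) ^ 2 + (β : ℂ) ^ 2 = 1 / 2 := by
    have e : ((α ^ 2 + β ^ 2 : ℝ) : ℂ) = ((1 / 2 : ℝ) : ℂ) := by rw [h]
    push_cast at e
    exact e
  have h1' : (l : ℂ) * α = 1 - 2 * α := by exact_mod_cast h1
  have h2' : (l : ℂ) * β = -(1 - 2 * β) := by exact_mod_cast h2
  ext i
  simp only [XX, e1, e2, e3, e4, e5, e6]
  fin_cases i <;> simp [zz]
  · ring_nf; rw [Complex.I_sq]; linear_combination h1'
  · linear_combination (-Complex.I * α) * h1' - Complex.I * β * h2' + Complex.I * l * h'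
  · linear_combination (-Complex.I * α) * h1' - Complex.I * β * h2' + Complex.I * l * h'
  · ring_nf; rw [Complex.I_sq]; linear_combination h2'

lemma LocalFlow.zz_flow (L : LocalFlow) {α β l : ℝ} (h : α ^ 2 + β ^ 2 = 1 / 2) (h1 : l * α = 1 - 2 * α)
    (h2 : l * β = -(1 - 2 * β)) {t : ℝ} (ht : t ∈ Ioo (-L.δ) L.δ) :
    L.φ (t, zz α β) = Complex.exp (Complex.I * l * t) • zz α β := by
  have hn : ∀ s : ℝ, ‖Complex.exp (Complex.I * l * s)‖ = 1 := by
    intro s
    rw [show Complex.I * l * s = ((l * s : ℝ) : ℂ) * Complex.I by push_cast; ring]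
    exact Complex.norm_exp_ofReal_mul_I _
  refine L.unique (zz_mem h) (fun s => Complex.exp (Complex.I * l * s) • zz α β) (by simp) ?_ ?_ ht
  · intro s _
    rw [XX_smul _ _ (hn s), XX_zz h h1 h2, smul_smul]
    have h3 : HasDerivAt (fun s : ℝ => Complex.I * l * (s : ℂ)) (Complex.I * l) s := by
      simpa using (Complex.ofRealCLM.hasDerivAt (x := s)).const_mul (Complex.I * l)
    exact (h3.cexp).smul_const (zz α β)
  · intro s _
    rw [mem_closedBall_zero_iff]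
    exact cone_norm (LocalFlow.smul_mem (hn s) (zz_mem h))

/-- smallness conditions on the parameter -/
structure Good (L : LocalFlow) (ε : ℝ) : Prop where
  pos : 0 < ε
  lt : ε < L.δ
  small : ε ≤ 1 / 1000
  yorke : ∀ z ∈ unitCone, MM (L.φ (ε, z)) = MM z → YY (MM z) = 0

lemma exists_good (L : LocalFlow) : ∃ ε, Good L ε := by
  obtain ⟨K, hK⟩ := (isCompact_closedBall (0 : Fin 6 → ℝ) 2).exists_bound_of_continuousOn
    ((contDiff_YY.continuous_fderiv (by simp)).continuousOn)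
  set K' : ℝ≥0 := ⟨max K 0, le_max_right _ _⟩
  have hlip : LipschitzOnWith K' YY (closedBall (0 : Fin 6 → ℝ) 2) := by
    refine (convex_closedBall (0 : Fin 6 → ℝ) _).lipschitzOnWith_of_nnnorm_fderiv_le (𝕜 := ℝ)
        (fun x _ => contDiff_YY.differentiable (by simp) x) ?_
    intro x hx
    have := (hK x hx).trans (le_max_left K 0)
    exact_mod_cast this
  have hKc : (K' : ℝ) = max K 0 := rfl
  have hKn : 0 ≤ max K 0 := le_max_right _ _
  set ε : ℝ := min (L.δ / 2) (min (1/1000) (1 / (2 * (max K 0 + 1)))) with hε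
  have hpos : 0 < ε := by
    have := L.hδ
    positivity
  have h1 : ε ≤ L.δ / 2 := min_le_left _ _
  have h2 : ε ≤ 1/1000 := (min_le_right _ _).trans (min_le_left _ _)
  have h3 : ε ≤ 1 / (2 * (max K 0 + 1)) := (min_le_right _ _).trans (min_le_right _ _)
  have hlt : ε < L.δ := by linarith [L.hδ]
  refine ⟨ε, hpos, hlt, h2, ?_⟩
  intro z hz hper
  have hmem : ∀ t ∈ Icc 0 ε, t ∈ Ioo (-L.δ) L.δ := fun t ht => ⟨by linarith [L.hδ, ht.1], by linarith [ht.2]⟩
  have hb := cone_ball hz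
  have hy := yorke YY (closedBall (0 : Fin 6 → ℝ) 2) K' hlip (fun t => MM (L.φ (t, z))) ε hpos
    (fun t ht => hasDerivAt_MM (L.ode t (hmem t ht) z hb)) ?_ ?_ ?_
  · simpa [L.init z hb] using hy
  · intro t ht
    have hc := L.mem_cone hz (hmem t ht)
    rw [mem_closedBall_zero_iff, pi_norm_le_iff_of_nonneg (by norm_num)]
    intro i
    fin_cases i <;> simp [MM, abs_mm_le hc]
  · simp only [L.init z hb, hper]
  · rw [hKc]
    have : max K 0 * ε ≤ max K 0 * (1 / (2 * (max K 0 + 1))) := by gcongr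
    refine lt_of_le_of_lt this ?_
    rw [mul_one_div, div_lt_one (by positivity)]
    linarith

/-- the algebra: equilibria of the reduced system -/
lemma algebra {p q x y r s : ℝ} (hn : p ^ 2 + q ^ 2 + x ^ 2 + y ^ 2 + r ^ 2 + s ^ 2 = 1)
    (hp : p * s - q * r + x * y = 0)
    (e3 : -4 * p * r - r + p - 4 * q * s - s + q = 0) (e4 : q - p + s - r = 0)
    (e5 : x + y = 0) (e6 : x - y = 0) :
    x = 0 ∧ y = 0 ∧ q = p ∧ r = s ∧
      ((p = -1/2 ∧ s = 1/2) ∨ (p = (1 + √3) / 4 ∧ s = (√3 - 1) / 4) ∨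
        (p = (1 - √3) / 4 ∧ s = (-√3 - 1) / 4)) := by
  have hx : x = 0 := by linarith
  have hy : y = 0 := by linarith
  subst hx hy
  have h3 : (√3 : ℝ) ^ 2 = 3 := Real.sq_sqrt (by norm_num)
  set u := q - r with hu
  have hu2 : u = p - s := by linarith
  have hA : (p + s) ^ 2 = 1 - u ^ 2 := by
    have : (p + s) ^ 2 + (q - r) ^ 2 = 1 := by linear_combination hn + 2 * hp
    rw [hu]; linarith
  have hB : (q + r) ^ 2 = 1 - u ^ 2 := by
    have : (p - s) ^ 2 + (q + r) ^ 2 = 1 := by linear_combination hn - 2 * hp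
    rw [hu2]; linarith
  have hAB : (p + s) * (q + r) = u ^ 2 + u := by
    have h1 : u ^ 2 = (q - r) * (p - s) := by rw [sq]; nth_rw 1 [hu]; rw [hu2]
    rw [h1]; nlinarith
  have hfac : (1 + u) ^ 2 * (2 * u - 1) = 0 := by
    have : ((p + s) * (q + r)) ^ 2 = (1 - u ^ 2) * (1 - u ^ 2) := by
      rw [mul_pow, hA, hB]
    rw [hAB] at this
    nlinarith
  rcases mul_eq_zero.1 hfac with h | h
  · have hu1 : u = -1 := by
      have := pow_eq_zero_iff (two_ne_zero) |>.1 h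
      linarith
    have hA0 : p + s = 0 := by
      have : (p + s) ^ 2 = 0 := by rw [hA, hu1]; norm_num
      exact pow_eq_zero_iff two_ne_zero |>.1 this
    have hB0 : q + r = 0 := by
      have : (q + r) ^ 2 = 0 := by rw [hB, hu1]; norm_num
      exact pow_eq_zero_iff two_ne_zero |>.1 this
    refine ⟨rfl, rfl, by linarith, by linarith, Or.inl ⟨by linarith, by linarith⟩⟩
  · have hu1 : u = 1/2 := by linarith
    have hd : (p + s) - (q + r) = 0 := by
      have : ((p + s) - (q + r)) ^ 2 = 0 := by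
        have e : ((p + s) - (q + r)) ^ 2 = (p + s) ^ 2 + (q + r) ^ 2 - 2 * ((p + s) * (q + r)) := by ring
        rw [e, hA, hB, hAB, hu1]; norm_num
      exact pow_eq_zero_iff two_ne_zero |>.1 this
    have hA3 : (p + s) ^ 2 = (√3 / 2) ^ 2 := by
      rw [hA, hu1, div_pow (√3) 2 2, h3]; norm_num
    rcases sq_eq_sq_iff_eq_or_eq_neg.1 hA3 with h4 | h4
    · refine ⟨rfl, rfl, by linarith, by linarith, Or.inr (Or.inl ⟨by linarith, by linarith⟩)⟩
    · refine ⟨rfl, rfl, by linarith, by linarith, Or.inr (Or.inr ⟨by linarith, by linarith⟩)⟩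

/-- parameters of the three points -/
def pt : Fin 3 → ℝ × ℝ := ![(1/2, 1/2), (-(1 + √3) / 4, (√3 - 1) / 4), (-(1 - √3) / 4, (-√3 - 1) / 4)]

def zpt (i : Fin 3) : V5 := zz (pt i).1 (pt i).2

def lpt : Fin 3 → ℝ := ![0, -2 * √3, 2 * √3]

lemma pt_sq (i : Fin 3) : (pt i).1 ^ 2 + (pt i).2 ^ 2 = 1 / 2 := by
  have h3 : (√3 : ℝ) ^ 2 = 3 := Real.sq_sqrt (by norm_num)
  fin_cases i <;> simp [pt] <;> nlinarith

lemma pt_l1 (i : Fin 3) : lpt i * (pt i).1 = 1 - 2 * (pt i).1 := by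
  have h3 : (√3 : ℝ) ^ 2 = 3 := Real.sq_sqrt (by norm_num)
  fin_cases i <;> simp [pt, lpt] <;> nlinarith

lemma pt_l2 (i : Fin 3) : lpt i * (pt i).2 = -(1 - 2 * (pt i).2) := by
  have h3 : (√3 : ℝ) ^ 2 = 3 := Real.sq_sqrt (by norm_num)
  fin_cases i <;> simp [pt, lpt] <;> nlinarith

lemma Rot_pi_smul_zz (α β : ℝ) (c : ℂ) : Rot (Real.pi * 1) (c • zz α β) = (-c) • zz α β := by
  rw [Rot_pi]
  ext i
  fin_cases i <;> simp [zz]

lemma psi_zpt {L : LocalFlow} {ε : ℝ} (hg : Good L ε) (i : Fin 3) :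
    Psi L ε (1, zpt i) = (-Complex.exp (Complex.I * lpt i * ε)) • zpt i := by
  have ht : ε ∈ Ioo (-L.δ) L.δ := ⟨by linarith [L.hδ, hg.pos], hg.lt⟩
  unfold zpt
  rw [Psi_cone 1 (zz_mem (pt_sq i)), eta_one, mul_one ε, L.zz_flow (pt_sq i) (pt_l1 i) (pt_l2 i) ht,
    Rot_pi_smul_zz]

/-- classification of the fixed lines -/
lemma fixed_classify {L : LocalFlow} {ε : ℝ} (hg : Good L ε) {z : V5} (hz : z ∈ unitCone) {c : ℂ}
    (hc : c • z = Psi L ε (1, z)) : ∃ i : Fin 3, ∃ d : ℂ, z = d • zpt i := by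
  have ht : ε ∈ Ioo (-L.δ) L.δ := ⟨by linarith [L.hδ, hg.pos], hg.lt⟩
  rw [Psi_cone 1 hz, eta_one, mul_one ε, Rot_pi] at hc
  set y := L.φ (ε, z) with hy
  have hyc : y ∈ unitCone := L.mem_cone hz ht
  have hy4 : y 4 = z 4 := L.coord4 hz ht
  have hdist : ‖y - z‖ ≤ 15 * ε := L.dist_le hz hg.pos.le hg.lt
  have hco : ∀ j, ‖y j - z j‖ ≤ 15 / 1000 := by
    intro j
    have h1 := (norm_le_pi_norm (y - z) j)
    simp only [Pi.sub_apply] at h1
    have := hg.small
    linarith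
  -- the last coordinate vanishes
  have hz4 : z 4 = 0 := by
    by_contra hne
    have h4 := congrFun hc 4
    simp only [Pi.smul_apply, smul_eq_mul, Matrix.cons_val, hy4] at h4
    have hc1 : c = 1 := by
      have : (c - 1) * z 4 = 0 := by rw [sub_mul, h4]; ring
      rcases mul_eq_zero.1 this with h | h
      · linear_combination h
      · exact absurd h hne
    rw [hc1, one_smul] at hc
    have hs : ∀ j : Fin 5, j ≠ 4 → ‖z j‖ ≤ 15 / 2000 := by
      intro j hj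
      have h5 : z j = -y j := by
        have := congrFun hc j
        fin_cases j <;> simp at this hj ⊢ <;> exact this
      have h6 : y j - z j = -(2 * z j) := by rw [h5]; ring
      have h7 := hco j
      rw [h6, norm_neg, norm_mul] at h7
      simp only [Complex.norm_ofNat] at h7
      linarith
    have hsq := hz.2
    have hz4sq : z 4 ^ 2 = -(z 0 ^ 2 + z 1 ^ 2 + z 2 ^ 2 + z 3 ^ 2) := by
      rw [Fin.sum_univ_five] at hsq
      linear_combination hsq
    have hn4 : ‖z 4‖ ^ 2 ≤ ‖z 0‖ ^ 2 + ‖z 1‖ ^ 2 + ‖z 2‖ ^ 2 + ‖z 3‖ ^ 2 := by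
      rw [← norm_pow, hz4sq, norm_neg]
      refine (norm_add_le _ _).trans ?_
      have := norm_add₃_le (a := z 0 ^ 2) (b := z 1 ^ 2) (c := z 2 ^ 2)
      simp only [norm_pow] at this ⊢
      linarith
    have hsum := cone_sum hz
    have hns : ∀ j, (z j).re ^ 2 + (z j).im ^ 2 = ‖z j‖ ^ 2 := by
      intro j
      rw [Complex.sq_norm, Complex.normSq_apply]; ring
    simp only [hns, Fin.sum_univ_five] at hsum
    have h0 := hs 0 (by decide)
    have h1 := hs 1 (by decide)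
    have h2 := hs 2 (by decide)
    have h3 := hs 3 (by decide)
    have n0 := norm_nonneg (z 0)
    have n1 := norm_nonneg (z 1)
    have n2 := norm_nonneg (z 2)
    have n3 := norm_nonneg (z 3)
    nlinarith
  -- the scalar has modulus one
  have hRc : c • z ∈ unitCone := by
    rw [hc, ← Rot_pi]; exact Rot_mem _ hyc
  have hcn : ‖c‖ = 1 := by
    have h1 := hRc.1
    have h2 : herm (c • z) (c • z) = (starRingEnd ℂ c * c) * herm z z := by
      unfold herm
      rw [Finset.mul_sum]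
      refine Finset.sum_congr rfl (fun j _ => ?_)
      simp; ring
    rw [h2, hz.1, mul_one, Complex.conj_mul'] at h1
    have h3 : ‖c‖ ^ 2 = 1 := by exact_mod_cast h1
    nlinarith [norm_nonneg c]
  have hMM : MM y = MM z := by
    have h1 : ∀ j k : Fin 5, j ≠ 4 → k ≠ 4 → mm j k y = mm j k z := by
      intro j k hj hk
      rw [← mm_smul j k c z hcn, hc]
      fin_cases j <;> fin_cases k <;> simp [mm] at hj hk ⊢
    ext i
    fin_cases i <;> simp [MM, h1]
  have hY := hg.yorke z hz hMM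
  -- read off the equations
  have e3 := congrFun hY 2
  have e4 := congrFun hY 3
  have e5 := congrFun hY 4
  have e6 := congrFun hY 5
  simp [YY, MM] at e3 e4 e5 e6
  obtain ⟨hA, hB, hC⟩ := cone_rel hz
  rw [Fin.sum_univ_five, hz4] at hA hB hC
  simp at hA hB hC
  have hn : mm 0 1 z ^ 2 + mm 0 2 z ^ 2 + mm 0 3 z ^ 2 + mm 1 2 z ^ 2 + mm 1 3 z ^ 2 + mm 2 3 z ^ 2 = 1 := by
    simp only [mm]
    have e : (2 * ((z 0).re * (z 1).im - (z 0).im * (z 1).re)) ^ 2 + (2 * ((z 0).re * (z 2).im - (z 0).im * (z 2).re)) ^ 2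
      + (2 * ((z 0).re * (z 3).im - (z 0).im * (z 3).re)) ^ 2 + (2 * ((z 1).re * (z 2).im - (z 1).im * (z 2).re)) ^ 2
      + (2 * ((z 1).re * (z 3).im - (z 1).im * (z 3).re)) ^ 2 + (2 * ((z 2).re * (z 3).im - (z 2).im * (z 3).re)) ^ 2
      = 4 * (((z 0).re ^ 2 + (z 1).re ^ 2 + (z 2).re ^ 2 + (z 3).re ^ 2) * ((z 0).im ^ 2 + (z 1).im ^ 2 + (z 2).im ^ 2 + (z 3).im ^ 2)
        - ((z 0).re * (z 0).im + (z 1).re * (z 1).im + (z 2).re * (z 2).im + (z 3).re * (z 3).im) ^ 2) := by ring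
    rw [e, hC]
    have h1 : (z 0).re ^ 2 + (z 1).re ^ 2 + (z 2).re ^ 2 + (z 3).re ^ 2 = 1 / 2 := by
      rw [hA]; norm_num
    have h2 : (z 0).im ^ 2 + (z 1).im ^ 2 + (z 2).im ^ 2 + (z 3).im ^ 2 = 1 / 2 := by
      rw [hB]; norm_num
    rw [h1, h2]; norm_num
  have hpl : mm 0 1 z * mm 2 3 z - mm 0 2 z * mm 1 3 z + mm 0 3 z * mm 1 2 z = 0 := by
    simp only [mm]; ring
  obtain ⟨hx, hyy, hq, hr, hcase⟩ := algebra (p := mm 0 1 z) (q := mm 0 2 z) (x := mm 0 3 z) (y := mm 1 2 z)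
    (r := mm 1 3 z) (s := mm 2 3 z) (by linarith) (by linarith) (by linarith) (by linarith)
    (by linarith) (by linarith)
  have hfin : ∀ i : Fin 3, mm 0 1 z = -(pt i).1 → mm 2 3 z = (pt i).2 → ∃ d : ℂ, z = d • zpt i := by
    intro i h1 h2
    refine eq_smul_of_mm hz (zz_mem (pt_sq i)) ?_
    obtain ⟨f1, f2, f3, f4, f5, f6⟩ := mm_zz (pt i).1 (pt i).2
    have hanti : ∀ j k (w : V5), mm j k w = - mm k j w := by intro j k w; simp only [mm]; ring
    have hself : ∀ j (w : V5), mm j j w = 0 := by intro j w; simp only [mm]; ring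
    have h4z : ∀ j, mm j 4 z = 0 := by intro j; simp [mm, hz4]
    have h4w : ∀ j, mm j 4 (zpt i) = 0 := by intro j; simp [mm, zpt, zz]
    have h4z' : ∀ j, mm 4 j z = 0 := by intro j; simp [mm, hz4]
    have h4w' : ∀ j, mm 4 j (zpt i) = 0 := by intro j; simp [mm, zpt, zz]
    have g01 : mm 0 1 z = mm 0 1 (zpt i) := by rw [h1]; exact f1.symm
    have g02 : mm 0 2 z = mm 0 2 (zpt i) := by rw [hq, h1]; exact f2.symm
    have g03 : mm 0 3 z = mm 0 3 (zpt i) := by rw [hx]; exact f3.symm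
    have g12 : mm 1 2 z = mm 1 2 (zpt i) := by rw [hyy]; exact f4.symm
    have g13 : mm 1 3 z = mm 1 3 (zpt i) := by rw [hr, h2]; exact f5.symm
    have g23 : mm 2 3 z = mm 2 3 (zpt i) := by rw [h2]; exact f6.symm
    have g10 : mm 1 0 z = mm 1 0 (zpt i) := by rw [hanti, g01, hanti]; ring
    have g20 : mm 2 0 z = mm 2 0 (zpt i) := by rw [hanti, g02, hanti]; ring
    have g30 : mm 3 0 z = mm 3 0 (zpt i) := by rw [hanti, g03, hanti]; ring
    have g21 : mm 2 1 z = mm 2 1 (zpt i) := by rw [hanti, g12, hanti]; ring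
    have g31 : mm 3 1 z = mm 3 1 (zpt i) := by rw [hanti, g13, hanti]; ring
    have g32 : mm 3 2 z = mm 3 2 (zpt i) := by rw [hanti, g23, hanti]; ring
    intro j k
    fin_cases j <;> fin_cases k <;> simp [hself, h4z, h4w, h4z', h4w', g01, g02, g03, g12, g13, g23, g10, g20, g30, g21, g31, g32]
  rcases hcase with ⟨h1, h2⟩ | ⟨h1, h2⟩ | ⟨h1, h2⟩
  · exact ⟨0, hfin 0 (by rw [h1]; simp [pt]; norm_num) (by rw [h2]; simp [pt])⟩
  · exact ⟨1, hfin 1 (by rw [h1]; simp [pt]; ring) (by rw [h2]; simp [pt])⟩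
  · exact ⟨2, hfin 2 (by rw [h1]; simp [pt]; ring) (by rw [h2]; simp [pt])⟩

end Crest.Agent.S0316H
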