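import Mathlib
import Crest.Agent.S0316H.Points

set_option autoImplicit false
set_option linter.unusedSimpArgs false
open Crest Crest.GeometryTopology Crest.GeometryTopology.Quadric
open Set Filter Topology Metric
open scoped ContDiff NNReal

noncomputable section

namespace Crest.Agent.S0316H

lemma zpt_mem (i : Fin 3) : zpt i ∈ unitCone := zz_mem (pt_sq i)

lemma zpt_ne (i : Fin 3) : zpt i ≠ 0 := by
  intro h
  have := congrFun h 1
  simp [zpt, zz] at this

lemma fixedLines_eq {L : LocalFlow} {ε : ℝ} (hg : Good L ε) :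
    fixedLines (lift L ε hg.pos hg.lt) = Set.range (fun i : Fin 3 => Submodule.span ℂ {zpt i}) := by
  ext ℓ
  constructor
  · rintro ⟨z, hz, rfl, hmem⟩
    obtain ⟨c, hc⟩ := Submodule.mem_span_singleton.1 hmem
    obtain ⟨i, d, hd⟩ := fixed_classify hg hz hc
    refine ⟨i, ?_⟩
    have hd0 : d ≠ 0 := by
      rintro rfl
      rw [zero_smul] at hd
      have := hz.1
      rw [hd] at this
      simp [herm] at this
    simp only
    rw [hd, Submodule.span_singleton_smul_eq (IsUnit.mk0 d hd0)]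
  · rintro ⟨i, rfl⟩
    refine ⟨zpt i, zpt_mem i, rfl, ?_⟩
    refine Submodule.mem_span_singleton.2 ⟨_, (psi_zpt hg i).symm⟩

lemma span_injective : Function.Injective (fun i : Fin 3 => Submodule.span ℂ {zpt i}) := by
  have h3 : (√3 : ℝ) ^ 2 = 3 := Real.sq_sqrt (by norm_num)
  have h3p : 0 < √3 := Real.sqrt_pos.2 (by norm_num)
  have key : ∀ i j : Fin 3, Submodule.span ℂ {zpt i} = Submodule.span ℂ {zpt j} → (pt i).1 = (pt j).1 := by
    intro i j hij
    have hmem : zpt i ∈ Submodule.span ℂ {zpt j} := by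
      rw [← hij]; exact Submodule.mem_span_singleton_self _
    obtain ⟨c, hc⟩ := Submodule.mem_span_singleton.1 hmem
    have h1 := congrFun hc 1
    have h0 := congrFun hc 0
    simp [zpt, zz] at h0 h1
    rw [h1, one_mul] at h0
    have := mul_left_cancel₀ Complex.I_ne_zero h0
    exact_mod_cast this.symm
  intro i j hij
  have h := key i j hij
  have hlt : 1 < √3 := by
    rw [show (1:ℝ) = √1 by simp]
    exact Real.sqrt_lt_sqrt (by norm_num) (by norm_num)
  have hlt2 : √3 < 2 := by nlinarith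
  fin_cases i <;> fin_cases j <;> simp [pt] at h ⊢ <;> linarith

lemma fixedLines_ncard {L : LocalFlow} {ε : ℝ} (hg : Good L ε) :
    (fixedLines (lift L ε hg.pos hg.lt)).ncard = 3 := by
  rw [fixedLines_eq hg, ← Set.image_univ, Set.ncard_image_of_injective _ span_injective, Set.ncard_univ]
  simp

/-- the degenerate point and direction -/
def w0 : V5 := ![-Complex.I / 2, -1/2, 1/2, Complex.I / 2, 0]

lemma zpt0 : zpt 0 = ![Complex.I / 2, 1/2, 1/2, Complex.I / 2, 0] := by
  ext i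
  fin_cases i <;> simp [zpt, zz, pt] <;> try ring

lemma line_deriv {f : V5 → V5} {z₀ w f' : V5} (hf : DifferentiableAt ℝ f z₀)
    (h : HasDerivAt (fun s : ℝ => f (z₀ + s • w)) f' 0) : fderiv ℝ f z₀ w = f' := by
  have hl : HasDerivAt (fun s : ℝ => z₀ + s • w) w 0 := by
    simpa using ((hasDerivAt_id (0:ℝ)).smul_const w).const_add z₀
  have hx0 : z₀ = z₀ + (0:ℝ) • w := by simp
  have h1 : HasDerivAt (fun s : ℝ => f (z₀ + s • w)) (fderiv ℝ f z₀ w) 0 := by
    rw [hx0] at hf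
    have := hf.hasFDerivAt.comp_hasDerivAt (f := fun s : ℝ => z₀ + s • w) (0:ℝ) hl
    rw [← hx0] at this
    exact this
  exact h1.unique h

lemma fderiv_XX (z w : V5) : fderiv ℝ XX z w = DX z w := by
  refine line_deriv (contDiff_XX.differentiable (by simp) z) ?_
  have hl : HasDerivAt (fun s : ℝ => z + s • w) w 0 := by
    simpa using ((hasDerivAt_id (0:ℝ)).smul_const w).const_add z
  have := hasDerivAt_XX hl
  simpa using this

lemma DX_w0 : DX (zpt 0) w0 = (2 : ℝ) • (Complex.I • zpt 0) := by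
  rw [zpt0]
  ext i
  fin_cases i <;> simp [DX, w0, mm, dmm] <;> ring_nf <;> simp [Complex.I_sq] <;> ring

lemma DX_I : DX (zpt 0) (Complex.I • zpt 0) = 0 := by
  rw [zpt0]
  ext i
  fin_cases i <;> simp [DX, mm, dmm] <;> ring_nf <;> simp [Complex.I_sq] 

lemma flow_zpt0 {L : LocalFlow} {t : ℝ} (ht : t ∈ Ioo (-L.δ) L.δ) : L.φ (t, zpt 0) = zpt 0 := by
  have := L.zz_flow (pt_sq 0) (pt_l1 0) (pt_l2 0) ht
  rw [zpt, this]
  simp [lpt]

/-- solution of the variational equation in the degenerate direction -/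
lemma fderiv_flow {L : LocalFlow} {t : ℝ} (ht : t ∈ Ioo (-L.δ) L.δ) :
    fderiv ℝ L.φ (t, zpt 0) (0, w0) = w0 + (2 * t) • (Complex.I • zpt 0) := by
  have hb := cone_ball (zpt_mem 0)
  set U : Set (ℝ × V5) := Ioo (-L.δ) L.δ ×ˢ ball 0 2 with hU
  have hUo : IsOpen U := isOpen_Ioo.prod isOpen_ball
  have hsm : ContDiffOn ℝ 2 L.φ U := contDiffOn_infty.1 L.smooth 2
  set A : V5 →L[ℝ] V5 := fderiv ℝ XX (zpt 0) with hA
  have hW : ∀ s ∈ Ioo (-L.δ) L.δ, HasDerivAt (fun s => fderiv ℝ L.φ (s, zpt 0) (0, w0))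
      (A (fderiv ℝ L.φ (s, zpt 0) (0, w0))) s := by
    intro s hs
    have := ODEFlow.hasDerivAt_fderiv_flow XX (contDiff_infty.1 contDiff_XX 2) U hUo L.φ hsm
      (fun p hp => L.ode p.1 hp.1 p.2 hp.2) (s, zpt 0) ⟨hs, hb⟩ w0
    simp only at this
    rw [flow_zpt0 hs] at this
    exact this
  have hV : ∀ s ∈ Ioo (-L.δ) L.δ, HasDerivAt (fun s : ℝ => w0 + (2 * s) • (Complex.I • zpt 0))
      (A (w0 + (2 * s) • (Complex.I • zpt 0))) s := by
    intro s _
    have h1 : HasDerivAt (fun s : ℝ => 2 * s) 2 s := by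
      simpa using (hasDerivAt_id s).const_mul 2
    have h2 := (h1.smul_const (Complex.I • zpt 0)).const_add w0
    refine h2.congr_deriv ?_
    rw [map_add, map_smul, hA, fderiv_XX, fderiv_XX, DX_w0, DX_I, smul_zero, add_zero]
  have h0 : fderiv ℝ L.φ ((0:ℝ), zpt 0) (0, w0) = w0 + (2 * (0:ℝ)) • (Complex.I • zpt 0) := by
    rw [mul_zero, zero_smul, add_zero]
    have hmem0 : ((0:ℝ), zpt 0) ∈ U := ⟨L.zero_mem, hb⟩
    have hd : DifferentiableAt ℝ L.φ ((0:ℝ), zpt 0) :=
      (hsm.contDiffAt (hUo.mem_nhds hmem0)).differentiableAt (by simp)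
    have hl : HasDerivAt (fun s : ℝ => (((0:ℝ), zpt 0 + s • w0) : ℝ × V5)) (0, w0) 0 := by
      have h1 : HasDerivAt (fun s : ℝ => zpt 0 + s • w0) w0 0 := by
        simpa using ((hasDerivAt_id (0:ℝ)).smul_const w0).const_add (zpt 0)
      exact (hasDerivAt_const _ _).prodMk h1
    have hx0 : zpt 0 = zpt 0 + (0:ℝ) • w0 := by simp
    have h1 : HasDerivAt (fun s : ℝ => L.φ ((0:ℝ), zpt 0 + s • w0)) (fderiv ℝ L.φ ((0:ℝ), zpt 0) (0, w0)) 0 := by
      rw [hx0] at hd
      have := hd.hasFDerivAt.comp_hasDerivAt (f := fun s : ℝ => (((0:ℝ), zpt 0 + s • w0) : ℝ × V5)) (0:ℝ) hl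
      rw [← hx0] at this
      exact this
    have h2 : HasDerivAt (fun s : ℝ => L.φ ((0:ℝ), zpt 0 + s • w0)) w0 0 := by
      have h3 : HasDerivAt (fun s : ℝ => zpt 0 + s • w0) w0 0 := by
        simpa using ((hasDerivAt_id (0:ℝ)).smul_const w0).const_add (zpt 0)
      refine h3.congr_of_eventuallyEq ?_
      have hcont : Continuous (fun s : ℝ => zpt 0 + s • w0) := by fun_prop
      have : ∀ᶠ s in 𝓝 (0:ℝ), zpt 0 + s • w0 ∈ ball (0 : V5) 2 := by
        refine hcont.continuousAt.eventually_mem (isOpen_ball.mem_nhds ?_)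
        simpa using cone_ball (zpt_mem 0)
      filter_upwards [this] with s hs using L.init _ hs
    exact h1.unique h2
  have huniq := ODE_solution_unique_of_mem_Ioo (v := fun _ x => A x) (s := fun _ => Set.univ) (K := ‖A‖₊)
    (f := fun s => fderiv ℝ L.φ (s, zpt 0) (0, w0)) (g := fun s : ℝ => w0 + (2 * s) • (Complex.I • zpt 0))
    (a := -L.δ) (b := L.δ) (t₀ := 0) (fun _ _ => A.lipschitz.lipschitzOnWith) L.zero_mem
    (fun s hs => ⟨hW s hs, trivial⟩) (fun s hs => ⟨hV s hs, trivial⟩) h0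
  exact huniq ht

lemma w0_tangent : w0 ∈ coneTangent (zpt 0) := by
  rw [zpt0]
  constructor
  · simp [herm, w0, Fin.sum_univ_five, Complex.conj_ofNat]; norm_num
  · simp [w0, Fin.sum_univ_five]; ring_nf; try simp [Complex.I_sq]

lemma fderiv_NN : fderiv ℝ NN (zpt 0) w0 = w0 := by
  refine line_deriv (contDiff_NN.differentiable (by simp) _) ?_
  have hl : HasDerivAt (fun s : ℝ => zpt 0 + s • w0) w0 0 := by
    simpa using ((hasDerivAt_id (0:ℝ)).smul_const w0).const_add (zpt 0)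
  have h1 := hasDerivAt_nsq hl
  have hn : nsq (zpt 0) = 1 := cone_sum (zpt_mem 0)
  have h2 : HasDerivAt (fun s : ℝ => nsq (zpt 0 + s • w0)) 0 0 := by
    refine h1.congr_deriv ?_
    rw [zero_smul, add_zero, w0_tangent.1, mul_zero]
  have h3 : HasDerivAt (fun s : ℝ => 2 / (1 + nsq (zpt 0 + s • w0))) 0 0 := by
    have := (h2.const_add 1).inv (by simp [hn])
    have := this.const_mul 2
    simpa [div_eq_mul_inv] using this
  have h4 := h3.smul hl
  refine h4.congr_deriv ?_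
  simp [hn]; norm_num

lemma degenerate {L : LocalFlow} {ε : ℝ} (hg : Good L ε) :
    HasDegenerateFixedPoint (lift L ε hg.pos hg.lt) := by
  have ht : ε ∈ Ioo (-L.δ) L.δ := ⟨by linarith [L.hδ, hg.pos], hg.lt⟩
  refine ⟨zpt 0, zpt_mem 0, -1, ?_, w0, w0_tangent, ?_, 2 * ε, ?_⟩
  · have := psi_zpt hg 0
    simp only [lpt, Matrix.cons_val_zero, Complex.ofReal_zero, mul_zero, zero_mul, Complex.exp_zero] at this
    exact this
  · intro r hr
    have := congrFun hr 1
    rw [zpt0] at this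
    simp [w0] at this
    have := congrArg Complex.re this
    simp at this
  · have hfun : (fun x : V5 => Psi L ε (1, x)) =
        fun x => Rot (Real.pi * 1) (L.φ (ε, NN x)) := by
      funext x
      change Rot (Real.pi * 1) (L.φ (ε * eta 1, NN x)) = _
      rw [eta_one, mul_one ε]
    have hd : DifferentiableAt ℝ (fun x : V5 => Psi L ε (1, x)) (zpt 0) := by
      have h1 := contDiff_Psi hg.pos hg.lt
      have h2 : ContDiff ℝ ∞ (fun x : V5 => (((1:ℝ), x) : ℝ × V5)) := contDiff_const.prodMk contDiff_id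
      have h3 : ContDiff ℝ ∞ (Psi L ε ∘ (fun x : V5 => (((1:ℝ), x) : ℝ × V5))) := ContDiff.comp h1 h2
      have h4 : Differentiable ℝ (Psi L ε ∘ (fun x : V5 => (((1:ℝ), x) : ℝ × V5))) :=
        h3.differentiable (by simp)
      exact h4 (zpt 0)
    change fderiv ℝ (fun x : V5 => Psi L ε (1, x)) (zpt 0) w0 = _
    rw [hfun] at hd ⊢
    refine line_deriv hd ?_
    have hb := cone_ball (zpt_mem 0)
    set U : Set (ℝ × V5) := Ioo (-L.δ) L.δ ×ˢ ball 0 2 with hU
    have hUo : IsOpen U := isOpen_Ioo.prod isOpen_ball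
    have hmemU : ((ε, zpt 0) : ℝ × V5) ∈ U := ⟨ht, hb⟩
    have hφc : ContDiffAt ℝ ∞ L.φ (ε, zpt 0) := L.smooth.contDiffAt (hUo.mem_nhds hmemU)
    have hφd : DifferentiableAt ℝ L.φ (ε, zpt 0) := hφc.differentiableAt (by simp)
    have hl : HasDerivAt (fun s : ℝ => zpt 0 + s • w0) w0 0 := by
      simpa using ((hasDerivAt_id (0:ℝ)).smul_const w0).const_add (zpt 0)
    have hx0 : zpt 0 + (0:ℝ) • w0 = zpt 0 := by simp
    have hN : HasDerivAt (fun s : ℝ => NN (zpt 0 + s • w0)) w0 0 := by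
      have h1 : DifferentiableAt ℝ NN (zpt 0 + (0:ℝ) • w0) := contDiff_NN.differentiable (by simp) _
      have := h1.hasFDerivAt.comp_hasDerivAt (f := fun s : ℝ => zpt 0 + s • w0) (0:ℝ) hl
      rw [hx0, fderiv_NN] at this
      exact this
    have hN2 : HasDerivAt (fun s : ℝ => ((ε, NN (zpt 0 + s • w0)) : ℝ × V5)) (0, w0) 0 :=
      (hasDerivAt_const _ _).prodMk hN
    have hNz : NN (zpt 0) = zpt 0 := NN_cone (zpt_mem 0)
    have hφ2 : HasDerivAt (fun s : ℝ => L.φ (ε, NN (zpt 0 + s • w0)))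
        (w0 + (2 * ε) • (Complex.I • zpt 0)) 0 := by
      have h1 : DifferentiableAt ℝ L.φ (ε, NN (zpt 0 + (0:ℝ) • w0)) := by
        rw [hx0, hNz]; exact hφd
      have := h1.hasFDerivAt.comp_hasDerivAt (f := fun s : ℝ => ((ε, NN (zpt 0 + s • w0)) : ℝ × V5)) (0:ℝ) hN2
      rw [hx0, hNz, fderiv_flow ht] at this
      exact this
    have hfin := hasDerivAt_Rot (hasDerivAt_const (0:ℝ) (Real.pi * 1)) hφ2
    refine hfin.congr_deriv ?_
    rw [zero_smul, zero_add, Rot_pi]
    rw [zpt0]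
    ext i
    fin_cases i <;> simp [w0] <;> ring_nf

end Crest.Agent.S0316H
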